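import Vale.Agent.P323.Main
import Vale.Agent.P323.Defs2

/-!
In every model of ZF, the Partition Principle for ordinal images implies Dependent Choices.
-/

universe u

open Vale.Agent.P323 in
theorem Vale.Agent.Results.P323.HartogsEqLindenbaumDC.result {M : Type u} (E : M → M → Prop)
    (hZF : IsZF E) (hPP : PPOrd E) : DC E :=
  letI : ZFM M := ⟨E, hZF⟩
  dc_of_PPord (by
    intro A κ π hκ hs
    obtain ⟨j, hj⟩ := hPP A κ π hκ ⟨(isFun_iff _ _ _).2 hs.1, fun y hy => by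
      obtain ⟨x, hx⟩ := hs.2 y hy
      exact ⟨x, (app_iff _ _ _).2 hx⟩⟩
    refine ⟨j, (isFun_iff _ _ _).1 hj.1, fun x x' y h1 h2 => ?_⟩
    exact hj.2 x x' y ((app_iff _ _ _).2 h1) ((app_iff _ _ _).2 h2))
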