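import Vale.Agent.P323.Main

/-!
In every model of ZF, the Partition Principle implies the Principle of Dependent Choices.
-/

universe u

open Vale.Agent.P323 in
theorem Vale.Agent.Results.P323.PPimpliesDC.result {M : Type u} (E : M → M → Prop) (hZF : IsZF E)
    (hPP : PP E) : DC E :=
  letI : ZFM M := ⟨E, hZF⟩
  dc_of_PPord (ppord_of_pp hPP)
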